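import Vale.Agent.Lib.P045.Main

/-!
P045 (Ryser's conjecture): hypergraphs of bounded maximum degree.
-/

namespace Vale.Agent.Results.P045.BoundedDegree

open Vale.Agent.Lib.P045

/-- (1) Every `r`-uniform hypergraph of maximum degree at most `D` has a cover `C` and a matching
`M` with `|C| ≤ (1 + r (H_D - 1)) |M|`, where `H_D = 1 + 1/2 + ... + 1/D`.
(2) Ryser's inequality `τ ≤ (r-1) ν` holds for `r`-partite `r`-uniform hypergraphs of maximum
degree at most `2` (for `r ≥ 4`) and of maximum degree at most `3` (for `r ≥ 12`). -/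
theorem result :
    (∀ (V : Type) [DecidableEq V] (E : Finset (Finset V)) (r D : ℕ), 1 ≤ r → 1 ≤ D →
      (∀ e ∈ E, e.card = r) → MaxDegLE E D →
      ∃ (C : Finset V) (M : Finset (Finset V)), IsCover E C ∧ IsMatching E M ∧
        (C.card : ℚ) ≤ (1 + r * (harmonic D - 1)) * M.card) ∧
    (∀ (V : Type) [DecidableEq V] (E : Finset (Finset V)) (r : ℕ), IsPartite E r →
      ((4 ≤ r ∧ MaxDegLE E 2) ∨ (12 ≤ r ∧ MaxDegLE E 3)) →
      ∃ (C : Finset V) (M : Finset (Finset V)), IsCover E C ∧ IsMatching E M ∧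
        C.card ≤ (r - 1) * M.card) := by
  refine ⟨fun V _ E r D hr1 hD hr hd => cover_le E r D hr1 hD hr hd, ?_⟩
  intro V _ E r hp h
  have hr := card_of_isPartite E r hp
  rcases h with ⟨h4, hd⟩ | ⟨h12, hd⟩
  · obtain ⟨C, M, hC, hM, hc⟩ := cover_le E r 2 (by omega) (by omega) hr hd
    refine ⟨C, M, hC, hM, ?_⟩
    have hh : harmonic 2 = 3 / 2 := by
      simp [harmonic, Finset.sum_range_succ]; norm_num
    rw [hh] at hc
    have hrq : (4 : ℚ) ≤ r := by exact_mod_cast h4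
    have hm : (0 : ℚ) ≤ M.card := Nat.cast_nonneg _
    have h1 : (C.card : ℚ) ≤ ((r : ℚ) - 1) * M.card := by nlinarith
    have h2 : (((r - 1 : ℕ) : ℚ)) = (r : ℚ) - 1 := by
      rw [Nat.cast_sub (by omega)]; simp
    have h3 : (C.card : ℚ) ≤ (((r - 1) * M.card : ℕ) : ℚ) := by
      rw [Nat.cast_mul, h2]; exact h1
    exact_mod_cast h3
  · obtain ⟨C, M, hC, hM, hc⟩ := cover_le E r 3 (by omega) (by omega) hr hd
    refine ⟨C, M, hC, hM, ?_⟩
    have hh : harmonic 3 = 11 / 6 := by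
      simp [harmonic, Finset.sum_range_succ]; norm_num
    rw [hh] at hc
    have hrq : (12 : ℚ) ≤ r := by exact_mod_cast h12
    have hm : (0 : ℚ) ≤ M.card := Nat.cast_nonneg _
    have h1 : (C.card : ℚ) ≤ ((r : ℚ) - 1) * M.card := by nlinarith
    have h2 : (((r - 1 : ℕ) : ℚ)) = (r : ℚ) - 1 := by
      rw [Nat.cast_sub (by omega)]; simp
    have h3 : (C.card : ℚ) ≤ (((r - 1) * M.card : ℕ) : ℚ) := by
      rw [Nat.cast_mul, h2]; exact h1
    exact_mod_cast h3

end Vale.Agent.Results.P045.BoundedDegree
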